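import Vale.Agent.Lib.P062.Defs
import Mathlib.Tactic

/-!
Sound checker for Maker strategies with relevance zones, on the board window of side 23.
All functions the evaluator runs are written with primitive operations and recursors.
-/

namespace Vale.Agent.Lib.P062

/-- Window index to cell. -/
def cellOf (i : ℕ) : Cell := (((i % 23 : ℕ) : ℤ) - 11, ((i / 23 : ℕ) : ℤ) - 11)

theorem cellOf_inj {i j : ℕ} (h : cellOf i = cellOf j) : i = j := by
  simp only [cellOf, Prod.mk.injEq] at h
  omega

/-- Bit test with primitive operations. -/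
def tb (m i : ℕ) : Bool := Nat.beq (Nat.land (Nat.shiftRight m i) 1) 1

theorem tb_eq (m i : ℕ) : tb m i = m.testBit i := by
  have h1 : Nat.land (Nat.shiftRight m i) 1 = (m >>> i) % 2 := Nat.and_one_is_mod _
  unfold tb
  rw [h1, Nat.testBit_eq_decide_div_mod_eq, Nat.shiftRight_eq_div_pow]
  by_cases h : m / 2 ^ i % 2 = 1
  · simp [h]
  · have h2 : Nat.beq (m / 2 ^ i % 2) 1 = false := by
      rw [Bool.eq_false_iff]
      intro h3
      exact h (Nat.eq_of_beq_eq_true h3)
    rw [h2]; simp [h]

/-- The mask of a single cell. -/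
def bitm (x : ℕ) : ℕ := Nat.shiftLeft 1 x

theorem tb_bitm (t i : ℕ) : tb (bitm t) i = decide (i = t) := by
  rw [tb_eq]
  unfold bitm
  have : Nat.shiftLeft 1 t = 2 ^ t := by
    simp [Nat.shiftLeft_eq]
  rw [this, Nat.testBit_two_pow]
  by_cases h : i = t
  · simp [h]
  · simp [h, Ne.symm h]

theorem tb_lor (a b i : ℕ) : tb (Nat.lor a b) i = (tb a i || tb b i) := by
  rw [tb_eq, tb_eq, tb_eq]; exact Nat.testBit_or a b i

theorem tb_xor (a b i : ℕ) : tb (Nat.xor a b) i = (tb a i ^^ tb b i) := by
  rw [tb_eq, tb_eq, tb_eq]; exact Nat.testBit_xor a b i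

theorem tb_land (a b i : ℕ) : tb (Nat.land a b) i = (tb a i && tb b i) := by
  rw [tb_eq, tb_eq, tb_eq]; exact Nat.testBit_and a b i

theorem tb_shl (m a i : ℕ) : tb (Nat.shiftLeft m (a)) (a + i) = tb m i := by
  rw [tb_eq, tb_eq]
  have : Nat.shiftLeft m a = m <<< a := rfl
  rw [this]
  simp [Nat.testBit_shiftLeft]

/-- `Good R F`: whenever Maker owns (at least) the cells in mask `R` and Breaker owns no cell of
mask `F`, Maker, to move, can force a win. -/
def Good (R F : ℕ) : Prop :=
  ∀ M B : Finset Cell, (∀ i, tb R i = true → cellOf i ∈ M) →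
    (∀ i, tb F i = true → cellOf i ∉ B) → MakerForces M B

/-- Masks of the eight orientations, anchored at the lower left corner of the bounding box. -/
def oriMask (o : ℕ) : ℕ :=
  cond (Nat.beq o 0) 201326607 (
  cond (Nat.beq o 1) 25165854 (
  cond (Nat.beq o 2) 125829144 (
  cond (Nat.beq o 3) 251658243 (
  cond (Nat.beq o 4) 9903522085170543644062515201 (
  cond (Nat.beq o 5) 4951761928029092913218584578 (
  cond (Nat.beq o 6) 4951760747437401827071492098 (
  9903521494874803654117818369)))))))

/-- Width minus one of the bounding box of an orientation. -/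
def oriWidth (o : ℕ) : ℕ := cond (Nat.ble 4 o) 1 4

/-- The mask of the copy of orientation `o` anchored at `a`. -/
def copyMask (o a : ℕ) : ℕ := Nat.shiftLeft (oriMask o) a

theorem leaf_core {o a : ℕ} {C : Finset Cell} (hC : IsCopy C)
    (hcells : ∀ p ∈ C, ∃ i, tb (copyMask o a) i = true ∧ cellOf i = p)
    (t : ℕ) : Good (Nat.xor (copyMask o a) (bitm t)) (bitm t) := by
  intro M B hR hF
  have hsub : ∀ p ∈ C, p = cellOf t ∨ p ∈ M := by
    intro p hp
    obtain ⟨i, hi, rfl⟩ := hcells p hp
    by_cases hit : i = t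
    · left; rw [hit]
    · right
      apply hR
      rw [tb_xor, hi, tb_bitm]
      simp [hit]
  have htB : cellOf t ∉ B := by
    apply hF
    rw [tb_bitm]
    simp
  by_cases htM : cellOf t ∈ M
  · refine MakerForces.won hC ?_
    intro p hp
    rcases hsub p hp with h | h
    · rw [h]; exact htM
    · exact h
  · refine MakerForces.move (cellOf t) htM htB ?_
    intro y _ _
    refine MakerForces.won hC ?_
    intro p hp
    rcases hsub p hp with h | h
    · rw [h]; exact Finset.mem_insert_self _ _
    · exact Finset.mem_insert_of_mem h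

theorem copy_cell (a sx sy dx dy : ℕ) (s₁ s₂ : ℤ) (sw : Bool) (q : Cell) (hw : a % 23 + dx < 23)
    (h1 : (sx : ℤ) + (orient s₁ s₂ sw q).1 = dx) (h2 : (sy : ℤ) + (orient s₁ s₂ sw q).2 = dy) :
    (cellOf a + ((sx : ℤ), (sy : ℤ))) + orient s₁ s₂ sw q = cellOf (a + (dx + 23 * dy)) := by
  ext
  · simp only [Prod.fst_add, cellOf]
    omega
  · simp only [Prod.snd_add, cellOf]
    omega

/-- The anchored copy of orientation `o` at window index `a`, when it does not wrap around. -/
theorem leaf_good {o a : ℕ} (ho : o < 8) (hw : a % 23 + oriWidth o < 23) (t : ℕ) :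
    Good (Nat.xor (copyMask o a) (bitm t)) (bitm t) := by
  have hoff : ∀ off, tb (oriMask o) off = true →
      ∀ p : Cell, p = cellOf (a + off) →
      ∃ i, tb (copyMask o a) i = true ∧ cellOf i = p := by
    intro off h p hp
    refine ⟨a + off, ?_, hp.symm⟩
    unfold copyMask
    rw [tb_shl]; exact h
  interval_cases o
  · -- orientation 0
    have hw' : a % 23 + 4 < 23 := hw
    refine leaf_core (C := snaky.image (fun p => (cellOf a + (((0 : ℕ) : ℤ), ((0 : ℕ) : ℤ))) + orient 1 1 false p)) ?_ ?_ t
    · exact ⟨_, 1, 1, false, Or.inl rfl, Or.inl rfl, rfl⟩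
    · intro p hp
      simp only [snaky, Finset.mem_image, Finset.mem_insert, Finset.mem_singleton] at hp
      obtain ⟨q, hq, rfl⟩ := hp
      rcases hq with rfl | rfl | rfl | rfl | rfl | rfl
      · exact hoff (0 + 23 * 0) (by decide) _ (copy_cell a 0 0 0 0 _ _ _ _ (by omega) (by simp [orient]) (by simp [orient]))
      · exact hoff (1 + 23 * 0) (by decide) _ (copy_cell a 0 0 1 0 _ _ _ _ (by omega) (by simp [orient]) (by simp [orient]))
      · exact hoff (2 + 23 * 0) (by decide) _ (copy_cell a 0 0 2 0 _ _ _ _ (by omega) (by simp [orient]) (by simp [orient]))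
      · exact hoff (3 + 23 * 0) (by decide) _ (copy_cell a 0 0 3 0 _ _ _ _ (by omega) (by simp [orient]) (by simp [orient]))
      · exact hoff (3 + 23 * 1) (by decide) _ (copy_cell a 0 0 3 1 _ _ _ _ (by omega) (by simp [orient]) (by simp [orient]))
      · exact hoff (4 + 23 * 1) (by decide) _ (copy_cell a 0 0 4 1 _ _ _ _ (by omega) (by simp [orient]) (by simp [orient]))
  · -- orientation 1
    have hw' : a % 23 + 4 < 23 := hw
    refine leaf_core (C := snaky.image (fun p => (cellOf a + (((4 : ℕ) : ℤ), ((0 : ℕ) : ℤ))) + orient (-1) 1 false p)) ?_ ?_ t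
    · exact ⟨_, (-1), 1, false, Or.inr rfl, Or.inl rfl, rfl⟩
    · intro p hp
      simp only [snaky, Finset.mem_image, Finset.mem_insert, Finset.mem_singleton] at hp
      obtain ⟨q, hq, rfl⟩ := hp
      rcases hq with rfl | rfl | rfl | rfl | rfl | rfl
      · exact hoff (4 + 23 * 0) (by decide) _ (copy_cell a 4 0 4 0 _ _ _ _ (by omega) (by simp [orient]) (by simp [orient]))
      · exact hoff (3 + 23 * 0) (by decide) _ (copy_cell a 4 0 3 0 _ _ _ _ (by omega) (by simp [orient]) (by simp [orient]))
      · exact hoff (2 + 23 * 0) (by decide) _ (copy_cell a 4 0 2 0 _ _ _ _ (by omega) (by simp [orient]) (by simp [orient]))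
      · exact hoff (1 + 23 * 0) (by decide) _ (copy_cell a 4 0 1 0 _ _ _ _ (by omega) (by simp [orient]) (by simp [orient]))
      · exact hoff (1 + 23 * 1) (by decide) _ (copy_cell a 4 0 1 1 _ _ _ _ (by omega) (by simp [orient]) (by simp [orient]))
      · exact hoff (0 + 23 * 1) (by decide) _ (copy_cell a 4 0 0 1 _ _ _ _ (by omega) (by simp [orient]) (by simp [orient]))
  · -- orientation 2
    have hw' : a % 23 + 4 < 23 := hw
    refine leaf_core (C := snaky.image (fun p => (cellOf a + (((0 : ℕ) : ℤ), ((1 : ℕ) : ℤ))) + orient 1 (-1) false p)) ?_ ?_ t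
    · exact ⟨_, 1, (-1), false, Or.inl rfl, Or.inr rfl, rfl⟩
    · intro p hp
      simp only [snaky, Finset.mem_image, Finset.mem_insert, Finset.mem_singleton] at hp
      obtain ⟨q, hq, rfl⟩ := hp
      rcases hq with rfl | rfl | rfl | rfl | rfl | rfl
      · exact hoff (0 + 23 * 1) (by decide) _ (copy_cell a 0 1 0 1 _ _ _ _ (by omega) (by simp [orient]) (by simp [orient]))
      · exact hoff (1 + 23 * 1) (by decide) _ (copy_cell a 0 1 1 1 _ _ _ _ (by omega) (by simp [orient]) (by simp [orient]))
      · exact hoff (2 + 23 * 1) (by decide) _ (copy_cell a 0 1 2 1 _ _ _ _ (by omega) (by simp [orient]) (by simp [orient]))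
      · exact hoff (3 + 23 * 1) (by decide) _ (copy_cell a 0 1 3 1 _ _ _ _ (by omega) (by simp [orient]) (by simp [orient]))
      · exact hoff (3 + 23 * 0) (by decide) _ (copy_cell a 0 1 3 0 _ _ _ _ (by omega) (by simp [orient]) (by simp [orient]))
      · exact hoff (4 + 23 * 0) (by decide) _ (copy_cell a 0 1 4 0 _ _ _ _ (by omega) (by simp [orient]) (by simp [orient]))
  · -- orientation 3
    have hw' : a % 23 + 4 < 23 := hw
    refine leaf_core (C := snaky.image (fun p => (cellOf a + (((4 : ℕ) : ℤ), ((1 : ℕ) : ℤ))) + orient (-1) (-1) false p)) ?_ ?_ t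
    · exact ⟨_, (-1), (-1), false, Or.inr rfl, Or.inr rfl, rfl⟩
    · intro p hp
      simp only [snaky, Finset.mem_image, Finset.mem_insert, Finset.mem_singleton] at hp
      obtain ⟨q, hq, rfl⟩ := hp
      rcases hq with rfl | rfl | rfl | rfl | rfl | rfl
      · exact hoff (4 + 23 * 1) (by decide) _ (copy_cell a 4 1 4 1 _ _ _ _ (by omega) (by simp [orient]) (by simp [orient]))
      · exact hoff (3 + 23 * 1) (by decide) _ (copy_cell a 4 1 3 1 _ _ _ _ (by omega) (by simp [orient]) (by simp [orient]))
      · exact hoff (2 + 23 * 1) (by decide) _ (copy_cell a 4 1 2 1 _ _ _ _ (by omega) (by simp [orient]) (by simp [orient]))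
      · exact hoff (1 + 23 * 1) (by decide) _ (copy_cell a 4 1 1 1 _ _ _ _ (by omega) (by simp [orient]) (by simp [orient]))
      · exact hoff (1 + 23 * 0) (by decide) _ (copy_cell a 4 1 1 0 _ _ _ _ (by omega) (by simp [orient]) (by simp [orient]))
      · exact hoff (0 + 23 * 0) (by decide) _ (copy_cell a 4 1 0 0 _ _ _ _ (by omega) (by simp [orient]) (by simp [orient]))
  · -- orientation 4
    have hw' : a % 23 + 1 < 23 := hw
    refine leaf_core (C := snaky.image (fun p => (cellOf a + (((0 : ℕ) : ℤ), ((0 : ℕ) : ℤ))) + orient 1 1 true p)) ?_ ?_ t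
    · exact ⟨_, 1, 1, true, Or.inl rfl, Or.inl rfl, rfl⟩
    · intro p hp
      simp only [snaky, Finset.mem_image, Finset.mem_insert, Finset.mem_singleton] at hp
      obtain ⟨q, hq, rfl⟩ := hp
      rcases hq with rfl | rfl | rfl | rfl | rfl | rfl
      · exact hoff (0 + 23 * 0) (by decide) _ (copy_cell a 0 0 0 0 _ _ _ _ (by omega) (by simp [orient]) (by simp [orient]))
      · exact hoff (0 + 23 * 1) (by decide) _ (copy_cell a 0 0 0 1 _ _ _ _ (by omega) (by simp [orient]) (by simp [orient]))
      · exact hoff (0 + 23 * 2) (by decide) _ (copy_cell a 0 0 0 2 _ _ _ _ (by omega) (by simp [orient]) (by simp [orient]))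
      · exact hoff (0 + 23 * 3) (by decide) _ (copy_cell a 0 0 0 3 _ _ _ _ (by omega) (by simp [orient]) (by simp [orient]))
      · exact hoff (1 + 23 * 3) (by decide) _ (copy_cell a 0 0 1 3 _ _ _ _ (by omega) (by simp [orient]) (by simp [orient]))
      · exact hoff (1 + 23 * 4) (by decide) _ (copy_cell a 0 0 1 4 _ _ _ _ (by omega) (by simp [orient]) (by simp [orient]))
  · -- orientation 5
    have hw' : a % 23 + 1 < 23 := hw
    refine leaf_core (C := snaky.image (fun p => (cellOf a + (((1 : ℕ) : ℤ), ((0 : ℕ) : ℤ))) + orient (-1) 1 true p)) ?_ ?_ t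
    · exact ⟨_, (-1), 1, true, Or.inr rfl, Or.inl rfl, rfl⟩
    · intro p hp
      simp only [snaky, Finset.mem_image, Finset.mem_insert, Finset.mem_singleton] at hp
      obtain ⟨q, hq, rfl⟩ := hp
      rcases hq with rfl | rfl | rfl | rfl | rfl | rfl
      · exact hoff (1 + 23 * 0) (by decide) _ (copy_cell a 1 0 1 0 _ _ _ _ (by omega) (by simp [orient]) (by simp [orient]))
      · exact hoff (1 + 23 * 1) (by decide) _ (copy_cell a 1 0 1 1 _ _ _ _ (by omega) (by simp [orient]) (by simp [orient]))
      · exact hoff (1 + 23 * 2) (by decide) _ (copy_cell a 1 0 1 2 _ _ _ _ (by omega) (by simp [orient]) (by simp [orient]))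
      · exact hoff (1 + 23 * 3) (by decide) _ (copy_cell a 1 0 1 3 _ _ _ _ (by omega) (by simp [orient]) (by simp [orient]))
      · exact hoff (0 + 23 * 3) (by decide) _ (copy_cell a 1 0 0 3 _ _ _ _ (by omega) (by simp [orient]) (by simp [orient]))
      · exact hoff (0 + 23 * 4) (by decide) _ (copy_cell a 1 0 0 4 _ _ _ _ (by omega) (by simp [orient]) (by simp [orient]))
  · -- orientation 6
    have hw' : a % 23 + 1 < 23 := hw
    refine leaf_core (C := snaky.image (fun p => (cellOf a + (((0 : ℕ) : ℤ), ((4 : ℕ) : ℤ))) + orient 1 (-1) true p)) ?_ ?_ t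
    · exact ⟨_, 1, (-1), true, Or.inl rfl, Or.inr rfl, rfl⟩
    · intro p hp
      simp only [snaky, Finset.mem_image, Finset.mem_insert, Finset.mem_singleton] at hp
      obtain ⟨q, hq, rfl⟩ := hp
      rcases hq with rfl | rfl | rfl | rfl | rfl | rfl
      · exact hoff (0 + 23 * 4) (by decide) _ (copy_cell a 0 4 0 4 _ _ _ _ (by omega) (by simp [orient]) (by simp [orient]))
      · exact hoff (0 + 23 * 3) (by decide) _ (copy_cell a 0 4 0 3 _ _ _ _ (by omega) (by simp [orient]) (by simp [orient]))
      · exact hoff (0 + 23 * 2) (by decide) _ (copy_cell a 0 4 0 2 _ _ _ _ (by omega) (by simp [orient]) (by simp [orient]))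
      · exact hoff (0 + 23 * 1) (by decide) _ (copy_cell a 0 4 0 1 _ _ _ _ (by omega) (by simp [orient]) (by simp [orient]))
      · exact hoff (1 + 23 * 1) (by decide) _ (copy_cell a 0 4 1 1 _ _ _ _ (by omega) (by simp [orient]) (by simp [orient]))
      · exact hoff (1 + 23 * 0) (by decide) _ (copy_cell a 0 4 1 0 _ _ _ _ (by omega) (by simp [orient]) (by simp [orient]))
  · -- orientation 7
    have hw' : a % 23 + 1 < 23 := hw
    refine leaf_core (C := snaky.image (fun p => (cellOf a + (((1 : ℕ) : ℤ), ((4 : ℕ) : ℤ))) + orient (-1) (-1) true p)) ?_ ?_ t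
    · exact ⟨_, (-1), (-1), true, Or.inr rfl, Or.inr rfl, rfl⟩
    · intro p hp
      simp only [snaky, Finset.mem_image, Finset.mem_insert, Finset.mem_singleton] at hp
      obtain ⟨q, hq, rfl⟩ := hp
      rcases hq with rfl | rfl | rfl | rfl | rfl | rfl
      · exact hoff (1 + 23 * 4) (by decide) _ (copy_cell a 1 4 1 4 _ _ _ _ (by omega) (by simp [orient]) (by simp [orient]))
      · exact hoff (1 + 23 * 3) (by decide) _ (copy_cell a 1 4 1 3 _ _ _ _ (by omega) (by simp [orient]) (by simp [orient]))
      · exact hoff (1 + 23 * 2) (by decide) _ (copy_cell a 1 4 1 2 _ _ _ _ (by omega) (by simp [orient]) (by simp [orient]))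
      · exact hoff (1 + 23 * 1) (by decide) _ (copy_cell a 1 4 1 1 _ _ _ _ (by omega) (by simp [orient]) (by simp [orient]))
      · exact hoff (0 + 23 * 1) (by decide) _ (copy_cell a 1 4 0 1 _ _ _ _ (by omega) (by simp [orient]) (by simp [orient]))
      · exact hoff (0 + 23 * 0) (by decide) _ (copy_cell a 1 4 0 0 _ _ _ _ (by omega) (by simp [orient]) (by simp [orient]))

/-! ### Braun trees of pairs of masks -/

/-- Braun trees holding two numbers at each node. -/
inductive Tr where
  | nil : Tr
  | node (l : Tr) (r f : ℕ) (rr : Tr) : Tr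

/-- Every stored pair of masks is good. -/
def Tr.All : Tr → Prop
  | .nil => True
  | .node l r f rr => l.All ∧ Good r f ∧ rr.All

/-- Lookup in continuation passing style. -/
noncomputable def getK (succ : ℕ → ℕ → Bool) (t : Tr) : ℕ → Bool :=
  Tr.rec (motive := fun _ => ℕ → Bool) (fun _ => false)
    (fun _ r f _ ihl ihr k =>
      cond (Nat.beq k 0) (succ r f)
        (cond (Nat.beq (Nat.land k 1) 1) (ihl (Nat.shiftRight k 1))
          (ihr (Nat.sub (Nat.shiftRight k 1) 1))))
    t

theorem getK_sound (succ : ℕ → ℕ → Bool) (t : Tr) (ht : t.All) (k : ℕ)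
    (h : getK succ t k = true) : ∃ r f, Good r f ∧ succ r f = true := by
  induction t generalizing k with
  | nil => simp [getK] at h
  | node l r f rr ihl ihr =>
    rcases ht with ⟨hl, hrf, hr⟩
    have h' : (cond (Nat.beq k 0) (succ r f)
        (cond (Nat.beq (Nat.land k 1) 1) (getK succ l (Nat.shiftRight k 1))
          (getK succ rr (Nat.sub (Nat.shiftRight k 1) 1)))) = true := h
    cases h1 : Nat.beq k 0
    · rw [h1] at h'
      cases h2 : Nat.beq (Nat.land k 1) 1
      · rw [h2] at h'
        exact ihr hr _ h'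
      · rw [h2] at h'
        exact ihl hl _ h'
    · rw [h1] at h'
      exact ⟨r, f, hrf, h'⟩

/-- Insertion in a Braun tree: a key whose parent is present. -/
noncomputable def setK (t : Tr) : ℕ → ℕ → ℕ → Tr :=
  Tr.rec (motive := fun _ => ℕ → ℕ → ℕ → Tr)
    (fun _ a b => Tr.node Tr.nil a b Tr.nil)
    (fun l r f rr ihl ihr k a b =>
      cond (Nat.beq k 0) (Tr.node l a b rr)
        (cond (Nat.beq (Nat.land k 1) 1) (Tr.node (ihl (Nat.shiftRight k 1) a b) r f rr)
          (Tr.node l r f (ihr (Nat.sub (Nat.shiftRight k 1) 1) a b))))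
    t

theorem setK_all (t : Tr) (ht : t.All) (k a b : ℕ) (hg : Good a b) : (setK t k a b).All := by
  induction t generalizing k with
  | nil => exact ⟨trivial, hg, trivial⟩
  | node l r f rr ihl ihr =>
    rcases ht with ⟨hl, hrf, hr⟩
    have h' : setK (Tr.node l r f rr) k a b = (cond (Nat.beq k 0) (Tr.node l a b rr)
        (cond (Nat.beq (Nat.land k 1) 1) (Tr.node (setK l (Nat.shiftRight k 1) a b) r f rr)
          (Tr.node l r f (setK rr (Nat.sub (Nat.shiftRight k 1) 1) a b)))) := rfl
    rw [h']
    cases Nat.beq k 0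
    · cases Nat.beq (Nat.land k 1) 1
      · exact ⟨hl, hrf, ihr hr _⟩
      · exact ⟨ihl hl _, hrf, hr⟩
    · exact ⟨hl, hg, hr⟩

/-! ### The reply fold -/

/-- Fold over packed replies: digits base `2 ^ 30`, each digit `c + 1024 * id`. The child `id`
must not depend on the reply cell `c`. -/
noncomputable def gatherK (t : Tr) (succ : ℕ → ℕ → ℕ → Bool) (cnt : ℕ) :
    ℕ → ℕ → ℕ → ℕ → Bool :=
  Nat.rec (motive := fun _ => ℕ → ℕ → ℕ → ℕ → Bool)
    (fun _ ra fa cv => succ ra fa cv)
    (fun _ ih n ra fa cv =>
      (fun dg =>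
        (fun c =>
          getK (fun r f => cond (tb f c) false
              (ih (Nat.shiftRight n 30) (Nat.lor ra r) (Nat.lor fa f) (Nat.lor cv (bitm c))))
            t (Nat.shiftRight dg 10))
        (Nat.land dg 1023))
      (Nat.land n 1073741823))
    cnt

theorem gatherK_sound (t : Tr) (ht : t.All) (succ : ℕ → ℕ → ℕ → Bool) (cnt n ra fa cv : ℕ)
    (h : gatherK t succ cnt n ra fa cv = true) :
    ∃ ra' fa' cv', succ ra' fa' cv' = true ∧
      (∀ i, tb ra i = true → tb ra' i = true) ∧
      (∀ i, tb fa i = true → tb fa' i = true) ∧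
      (∀ i, tb cv' i = true → tb cv i = true ∨
        ∃ r f, Good r f ∧ tb f i = false ∧
          (∀ j, tb r j = true → tb ra' j = true) ∧
          (∀ j, tb f j = true → tb fa' j = true)) := by
  induction cnt generalizing n ra fa cv with
  | zero =>
    exact ⟨ra, fa, cv, h, fun _ h => h, fun _ h => h, fun _ h => Or.inl h⟩
  | succ cnt ih =>
    have h' : getK (fun r f => cond (tb f (Nat.land (Nat.land n 1073741823) 1023)) false
        (gatherK t succ cnt (Nat.shiftRight n 30) (Nat.lor ra r) (Nat.lor fa f)
          (Nat.lor cv (bitm (Nat.land (Nat.land n 1073741823) 1023)))))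
        t (Nat.shiftRight (Nat.land n 1073741823) 10) = true := h
    obtain ⟨r, f, hG, hk⟩ := getK_sound _ t ht _ h'
    set c := Nat.land (Nat.land n 1073741823) 1023 with hc
    cases hfc : tb f c
    · rw [hfc] at hk
      obtain ⟨ra', fa', cv', hs, hm1, hm2, hcov⟩ := ih _ _ _ _ hk
      refine ⟨ra', fa', cv', hs, ?_, ?_, ?_⟩
      · intro i hi; apply hm1; rw [tb_lor, hi]; rfl
      · intro i hi; apply hm2; rw [tb_lor, hi]; rfl
      · intro i hi
        rcases hcov i hi with h1 | h1
        · rw [tb_lor, tb_bitm, Bool.or_eq_true] at h1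
          rcases h1 with h1 | h1
          · exact Or.inl h1
          · right
            have hic : i = c := by simpa using h1
            subst hic
            refine ⟨r, f, hG, hfc, ?_, ?_⟩
            · intro j hj; apply hm1; rw [tb_lor, hj, Bool.or_true]
            · intro j hj; apply hm2; rw [tb_lor, hj, Bool.or_true]
        · exact Or.inr h1
    · rw [hfc] at hk
      simp at hk

/-- Clear a bit. -/
def clearBit (n x : ℕ) : ℕ := Nat.xor n (Nat.land n (bitm x))

theorem tb_clearBit (n x i : ℕ) : tb (clearBit n x) i = (tb n i && !decide (i = x)) := by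
  unfold clearBit
  rw [tb_xor, tb_land, tb_bitm]
  by_cases hix : i = x
  · simp [hix]
  · simp [hix]

/-- The interior rule. -/
noncomputable def interiorK (t : Tr) (x dflt cnt reps : ℕ) (k : ℕ → ℕ → Bool) : Bool :=
  getK (fun rd fd =>
    gatherK t (fun ra fa cv =>
        (fun r =>
          (fun u => cond (Nat.beq (Nat.lor fd u) u) (k r fa) false)
            (Nat.lor (Nat.lor r (bitm x)) cv))
        (clearBit ra x))
      cnt reps rd (Nat.lor fd (bitm x)) 0)
    t dflt

theorem interiorK_sound (t : Tr) (ht : t.All) (x dflt cnt reps : ℕ) (k : ℕ → ℕ → Bool)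
    (h : interiorK t x dflt cnt reps k = true) : ∃ R F, Good R F ∧ k R F = true := by
  obtain ⟨rd, fd, hGd, h1⟩ := getK_sound _ t ht _ h
  obtain ⟨ra, fa, cv, hs, hm1, hm2, hcover⟩ := gatherK_sound t ht _ _ _ _ _ _ h1
  have hs' : cond (Nat.beq (Nat.lor fd (Nat.lor (Nat.lor (clearBit ra x) (bitm x)) cv))
      (Nat.lor (Nat.lor (clearBit ra x) (bitm x)) cv)) (k (clearBit ra x) fa) false = true := hs
  cases hcv : Nat.beq (Nat.lor fd (Nat.lor (Nat.lor (clearBit ra x) (bitm x)) cv))
      (Nat.lor (Nat.lor (clearBit ra x) (bitm x)) cv)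
  · rw [hcv] at hs'; simp at hs'
  rw [hcv] at hs'
  have hk : k (clearBit ra x) fa = true := hs'
  refine ⟨clearBit ra x, fa, ?_, hk⟩
  have hcov' : ∀ i, tb fd i = true →
      (tb (clearBit ra x) i = true ∨ i = x) ∨ tb cv i = true := by
    intro i hi
    have heq := Nat.eq_of_beq_eq_true hcv
    have h2 := congrArg (fun n => tb n i) heq
    simp only [tb_lor, tb_bitm, hi, Bool.true_or] at h2
    have h3 := h2.symm
    simpa [Bool.or_eq_true] using h3
  intro M B hR hF
  have hxB : cellOf x ∉ B := by
    apply hF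
    apply hm2
    rw [tb_lor, tb_bitm]; simp
  have hFd : ∀ i, tb fd i = true → cellOf i ∉ B := by
    intro i hi
    apply hF
    apply hm2
    rw [tb_lor, hi]; rfl
  have hRa : ∀ i, tb ra i = true → i ≠ x → cellOf i ∈ M := by
    intro i hi hix
    apply hR
    rw [tb_clearBit]
    simp [hi, hix]
  by_cases hxM : cellOf x ∈ M
  · apply hGd M B _ hFd
    intro i hi
    by_cases hix : i = x
    · rw [hix]; exact hxM
    · exact hRa i (hm1 i hi) hix
  · refine MakerForces.move (cellOf x) hxM hxB ?_
    intro y hy1 hy2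
    have hRins : ∀ i, tb ra i = true → cellOf i ∈ insert (cellOf x) M := by
      intro i hi
      by_cases hix : i = x
      · rw [hix]; exact Finset.mem_insert_self _ _
      · exact Finset.mem_insert_of_mem (hRa i hi hix)
    by_cases hy : ∃ i, tb fd i = true ∧ cellOf i = y
    · obtain ⟨i, hi, rfl⟩ := hy
      rcases hcov' i hi with (h1 | h1) | h1
      · exfalso
        apply hy1
        apply Finset.mem_insert_of_mem
        apply hR
        exact h1
      · exfalso
        apply hy1
        rw [h1]; exact Finset.mem_insert_self _ _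
      · rcases hcover i h1 with h2 | ⟨r, f, hG, hfi, hr, hf⟩
        · have : tb 0 i = false := by rw [tb_eq]; simp
          rw [this] at h2; exact Bool.noConfusion h2
        · apply hG
          · intro j hj
            exact hRins j (hr j hj)
          · intro k hk
            rw [Finset.mem_insert]
            rintro (h3 | h3)
            · have := cellOf_inj h3
              subst this
              rw [hk] at hfi
              exact Bool.noConfusion hfi
            · exact hF k (hf k hk) h3
    · apply hGd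
      · intro i hi
        exact hRins i (hm1 i hi)
      · intro k hk
        rw [Finset.mem_insert]
        rintro (h3 | h3)
        · exact hy ⟨k, hk, h3⟩
        · exact hFd k hk h3

/-! ### One node of a certificate -/

/-- A packed node. Leaf (low bit 0): `o + 8 * a + 8192 * t` after the low bit.
Interior (low bit 1): `x + 2^10 * dflt + 2^30 * cnt + 2^40 * reps` after the low bit. -/
noncomputable def stepK (t : Tr) (n : ℕ) (k : ℕ → ℕ → Bool) : Bool :=
  (fun m =>
    cond (Nat.beq (Nat.land n 1) 0)
      ((fun o =>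
        (fun a =>
          (fun c =>
            cond (Nat.ble (Nat.succ (Nat.add (Nat.mod a 23) (oriWidth o))) 23)
              (k (Nat.xor (copyMask o a) (bitm c)) (bitm c)) false)
            (Nat.shiftRight m 13))
          (Nat.land (Nat.shiftRight m 3) 1023))
        (Nat.land m 7))
      (interiorK t (Nat.land m 1023) (Nat.land (Nat.shiftRight m 10) 1048575)
        (Nat.land (Nat.shiftRight m 30) 1023) (Nat.shiftRight m 40) k))
    (Nat.shiftRight n 1)

theorem stepK_sound (t : Tr) (ht : t.All) (n : ℕ) (k : ℕ → ℕ → Bool)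
    (h : stepK t n k = true) : ∃ R F, Good R F ∧ k R F = true := by
  unfold stepK at h
  simp only at h
  cases h1 : Nat.beq (Nat.land n 1) 0
  · rw [h1] at h
    exact interiorK_sound t ht _ _ _ _ k h
  · rw [h1] at h
    simp only [cond_true] at h
    set m := Nat.shiftRight n 1
    set o := Nat.land m 7 with ho
    set a := Nat.land (Nat.shiftRight m 3) 1023
    set c := Nat.shiftRight m 13
    cases h2 : Nat.ble (Nat.succ (Nat.add (Nat.mod a 23) (oriWidth o))) 23
    · rw [h2] at h; simp at h
    · rw [h2] at h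
      simp only [cond_true] at h
      refine ⟨_, _, leaf_good ?_ ?_ c, h⟩
      · have : o = m % 8 := by
          rw [ho]; exact Nat.and_two_pow_sub_one_eq_mod m 3
        rw [this]; exact Nat.mod_lt _ (by norm_num)
      · have := Nat.le_of_ble_eq_true h2
        exact this

/-! ### Running certificates -/

/-- Force a natural number to a literal in the evaluator. -/
noncomputable def force (n : ℕ) (k : ℕ → Bool) : Bool :=
  Nat.rec (motive := fun _ => Bool) (k 0) (fun m _ => k (Nat.succ m)) n

theorem force_eq (n : ℕ) (k : ℕ → Bool) : force n k = k n := by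
  cases n <;> rfl

/-- Run a list of packed nodes with sequential identifiers. -/
noncomputable def runK (final : Tr → ℕ → Bool) (ns : List ℕ) : Tr → ℕ → Bool :=
  List.rec (motive := fun _ => Tr → ℕ → Bool) final
    (fun n _ ih t id =>
      stepK t n (fun r f => force r fun r' => force f fun f' =>
        ih (setK t id r' f') (Nat.succ id)))
    ns

theorem runK_sound (final : Tr → ℕ → Bool) (ns : List ℕ) (t : Tr) (id : ℕ) (ht : t.All)
    (h : runK final ns t id = true) : ∃ t' id', t'.All ∧ final t' id' = true := by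
  induction ns generalizing t id with
  | nil => exact ⟨t, id, ht, h⟩
  | cons n ns ih =>
    have h' : stepK t n (fun r f => force r fun r' => force f fun f' =>
        runK final ns (setK t id r' f') (Nat.succ id)) = true := h
    obtain ⟨R, F, hG, hk⟩ := stepK_sound t ht n _ h'
    simp only [force_eq] at hk
    exact ih _ _ (setK_all t ht _ _ _ hG) hk

/-- Run a list of chunks of packed nodes. -/
noncomputable def runChunksK (final : Tr → ℕ → Bool) (cs : List (List ℕ)) : Tr → ℕ → Bool :=
  List.rec (motive := fun _ => Tr → ℕ → Bool) final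
    (fun c _ ih t id => runK ih c t id)
    cs

theorem runChunksK_sound (final : Tr → ℕ → Bool) (cs : List (List ℕ)) (t : Tr) (id : ℕ)
    (ht : t.All) (h : runChunksK final cs t id = true) :
    ∃ t' id', t'.All ∧ final t' id' = true := by
  induction cs generalizing t id with
  | nil => exact ⟨t, id, ht, h⟩
  | cons c cs ih =>
    have h' : runK (runChunksK final cs) c t id = true := h
    obtain ⟨t1, id1, ht1, h1⟩ := runK_sound _ c t id ht h'
    exact ih _ _ ht1 h1

/-- Check a certificate: node `root` carries the masks `R` and `F`. -/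
noncomputable def checkCert (cs : List (List ℕ)) (root R F : ℕ) : Bool :=
  runChunksK (fun t _ => getK (fun r f => and (Nat.beq r R) (Nat.beq f F)) t root) cs Tr.nil 0

theorem checkCert_good {cs : List (List ℕ)} {root R F : ℕ}
    (h : checkCert cs root R F = true) : Good R F := by
  obtain ⟨t, id, ht, h1⟩ := runChunksK_sound _ cs Tr.nil 0 trivial h
  obtain ⟨r, f, hG, h2⟩ := getK_sound _ t ht _ h1
  rw [Bool.and_eq_true] at h2
  have e1 := Nat.eq_of_beq_eq_true h2.1
  have e2 := Nat.eq_of_beq_eq_true h2.2
  rw [← e1, ← e2]; exact hG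

end Vale.Agent.Lib.P062
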