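import Mathlib.Data.Finset.Image
import Mathlib.Data.Int.Basic
import Mathlib.Algebra.Group.Prod

/-!
The Snaky achievement game on the plane: statement level definitions.
-/

namespace Vale.Agent.Lib.P062

/-- A cell of the square grid, indexed by its lower left corner. -/
abbrev Cell := ℤ × ℤ

/-- The hexomino Snaky. -/
def snaky : Finset Cell := {(0, 0), (1, 0), (2, 0), (3, 0), (3, 1), (4, 1)}

/-- The action of a `2 × 2` signed permutation matrix on a cell: optionally swap the
coordinates, then multiply them by the signs `s₁` and `s₂`. -/
def orient (s₁ s₂ : ℤ) (sw : Bool) (p : Cell) : Cell :=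
  if sw then (s₁ * p.2, s₂ * p.1) else (s₁ * p.1, s₂ * p.2)

/-- `C` is an allowed copy of Snaky: the image of Snaky under one of the eight signed
permutation matrices, followed by a translation. -/
def IsCopy (C : Finset Cell) : Prop :=
  ∃ (t : Cell) (s₁ s₂ : ℤ) (sw : Bool), (s₁ = 1 ∨ s₁ = -1) ∧ (s₂ = 1 ∨ s₂ = -1) ∧
    C = snaky.image (fun p => t + orient s₁ s₂ sw p)

/-- `MakerForces M B`: in the position where Maker owns the cells `M`, Breaker owns the cells
`B` and Maker is to move, Maker can force a win after finitely many turns. Either Maker already
owns an allowed copy, or Maker has a move `x` on a free cell such that, whatever free cell `y`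
Breaker then claims, Maker can force a win from the resulting position. -/
inductive MakerForces : Finset Cell → Finset Cell → Prop
  | won {M B C : Finset Cell} (hC : IsCopy C) (hCM : C ⊆ M) : MakerForces M B
  | move {M B : Finset Cell} (x : Cell) (hxM : x ∉ M) (hxB : x ∉ B)
      (next : ∀ y : Cell, y ∉ insert x M → y ∉ B → MakerForces (insert x M) (insert y B)) :
      MakerForces M B

end Vale.Agent.Lib.P062
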