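import Vale.Agent.Lib.P062.Core

/-!
The dihedral symmetry of the game, and how good masks give statements about positions.
-/

namespace Vale.Agent.Lib.P062

theorem orient_add (s₁ s₂ : ℤ) (sw : Bool) (p q : Cell) :
    orient s₁ s₂ sw (p + q) = orient s₁ s₂ sw p + orient s₁ s₂ sw q := by
  cases sw <;> ext <;> simp [orient, mul_add]

theorem orient_orient (a b c d : ℤ) (sa sc : Bool) (p : Cell) :
    orient a b sa (orient c d sc p) =
      orient (if sa then a * d else a * c) (if sa then b * c else b * d) (xor sa sc) p := by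
  cases sa <;> cases sc <;> ext <;> simp [orient, mul_assoc]

theorem sign_mul {a b : ℤ} (ha : a = 1 ∨ a = -1) (hb : b = 1 ∨ b = -1) :
    a * b = 1 ∨ a * b = -1 := by
  rcases ha with rfl | rfl <;> rcases hb with rfl | rfl <;> simp

theorem isCopy_image {s₁ s₂ : ℤ} {sw : Bool} (h₁ : s₁ = 1 ∨ s₁ = -1) (h₂ : s₂ = 1 ∨ s₂ = -1)
    {C : Finset Cell} (hC : IsCopy C) : IsCopy (C.image (orient s₁ s₂ sw)) := by
  obtain ⟨t, c, d, sc, hc, hd, rfl⟩ := hC
  refine ⟨orient s₁ s₂ sw t, if sw then s₁ * d else s₁ * c, if sw then s₂ * c else s₂ * d,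
    xor sw sc, ?_, ?_, ?_⟩
  · split_ifs
    · exact sign_mul h₁ hd
    · exact sign_mul h₁ hc
  · split_ifs
    · exact sign_mul h₂ hc
    · exact sign_mul h₂ hd
  · rw [Finset.image_image]
    apply Finset.image_congr
    intro p _
    simp only [Function.comp, orient_add, orient_orient]

/-- The inverse parameters of a signed permutation. -/
theorem orient_inv {s₁ s₂ : ℤ} {sw : Bool} (h₁ : s₁ = 1 ∨ s₁ = -1) (h₂ : s₂ = 1 ∨ s₂ = -1)
    (p : Cell) :
    orient s₁ s₂ sw (orient (if sw then s₂ else s₁) (if sw then s₁ else s₂) sw p) = p := by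
  have e₁ : s₁ * s₁ = 1 := by rcases h₁ with rfl | rfl <;> norm_num
  have e₂ : s₂ * s₂ = 1 := by rcases h₂ with rfl | rfl <;> norm_num
  cases sw <;> ext <;> simp [orient, ← mul_assoc, e₁, e₂]

theorem orient_inv' {s₁ s₂ : ℤ} {sw : Bool} (h₁ : s₁ = 1 ∨ s₁ = -1) (h₂ : s₂ = 1 ∨ s₂ = -1)
    (p : Cell) :
    orient (if sw then s₂ else s₁) (if sw then s₁ else s₂) sw (orient s₁ s₂ sw p) = p := by
  have e₁ : s₁ * s₁ = 1 := by rcases h₁ with rfl | rfl <;> norm_num
  have e₂ : s₂ * s₂ = 1 := by rcases h₂ with rfl | rfl <;> norm_num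
  cases sw <;> ext <;> simp [orient, ← mul_assoc, e₁, e₂]

theorem orient_injective {s₁ s₂ : ℤ} {sw : Bool} (h₁ : s₁ = 1 ∨ s₁ = -1) (h₂ : s₂ = 1 ∨ s₂ = -1) :
    Function.Injective (orient s₁ s₂ sw) := by
  intro p q h
  rw [← orient_inv' h₁ h₂ p, ← orient_inv' h₁ h₂ q, h]

/-- Symmetry of the game under a signed permutation of the plane. -/
theorem MakerForces.image {s₁ s₂ : ℤ} {sw : Bool} (h₁ : s₁ = 1 ∨ s₁ = -1) (h₂ : s₂ = 1 ∨ s₂ = -1)
    {M B : Finset Cell} (h : MakerForces M B) :
    MakerForces (M.image (orient s₁ s₂ sw)) (B.image (orient s₁ s₂ sw)) := by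
  induction h with
  | won hC hCM =>
    exact MakerForces.won (isCopy_image h₁ h₂ hC) (Finset.image_subset_image hCM)
  | @move M B x hxM hxB _ ih =>
    have hinj := orient_injective (sw := sw) h₁ h₂
    refine MakerForces.move (orient s₁ s₂ sw x) ?_ ?_ ?_
    · rw [Finset.mem_image]
      rintro ⟨z, hz, hzx⟩
      exact hxM (hinj hzx ▸ hz)
    · rw [Finset.mem_image]
      rintro ⟨z, hz, hzx⟩
      exact hxB (hinj hzx ▸ hz)
    · intro y hy1 hy2
      -- `y` is the image of its preimage
      set z := orient (if sw then s₂ else s₁) (if sw then s₁ else s₂) sw y with hz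
      have hyz : orient s₁ s₂ sw z = y := orient_inv h₁ h₂ y
      have hz1 : z ∉ insert x M := by
        intro hzm
        apply hy1
        rw [← hyz, ← Finset.image_insert]
        exact Finset.mem_image_of_mem _ hzm
      have hz2 : z ∉ B := by
        intro hzm
        apply hy2
        rw [← hyz]
        exact Finset.mem_image_of_mem _ hzm
      have := ih z hz1 hz2
      rw [Finset.image_insert, Finset.image_insert, hyz] at this
      exact this

/-- The origin is window index 264. -/
theorem cellOf_origin : cellOf 264 = (0, 0) := by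
  decide

/-- A good mask with Maker requirement at the origin handles every reply outside `F`. -/
theorem reply_of_good {F : ℕ} (hF : Good (bitm 264) F) {y : Cell}
    (hy : ∀ j, tb F j = true → cellOf j ≠ y) : MakerForces {(0, 0)} {y} := by
  apply hF
  · intro i hi
    rw [tb_bitm] at hi
    have : i = 264 := by simpa using hi
    rw [this, cellOf_origin]
    exact Finset.mem_singleton_self _
  · intro i hi
    rw [Finset.mem_singleton]
    exact hy i hi

/-- A good mask handles the reply at window index `j` when `j` is not in `F`. -/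
theorem reply_at {F j : ℕ} (hF : Good (bitm 264) F) (hj : tb F j = false) :
    MakerForces {(0, 0)} {cellOf j} := by
  apply reply_of_good hF
  intro k hk h
  have := cellOf_inj h
  subst this
  rw [hk] at hj
  exact Bool.noConfusion hj

/-- Transport of a reply along a signed permutation. -/
theorem reply_via {s₁ s₂ : ℤ} {sw : Bool} (h₁ : s₁ = 1 ∨ s₁ = -1) (h₂ : s₂ = 1 ∨ s₂ = -1)
    {y z : Cell} (h : MakerForces {(0, 0)} {z}) (hz : orient s₁ s₂ sw z = y) :
    MakerForces {(0, 0)} {y} := by
  have := MakerForces.image (sw := sw) h₁ h₂ h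
  have ho : orient s₁ s₂ sw (0, 0) = (0, 0) := by
    cases sw <;> simp [orient]
  rw [Finset.image_singleton, Finset.image_singleton, ho, hz] at this
  exact this

/-- Bits of a literal list of indices. -/
def maskOfList : List ℕ → ℕ
  | [] => 0
  | i :: l => Nat.lor (bitm i) (maskOfList l)

theorem mem_of_tb_maskOfList : ∀ (l : List ℕ) (i : ℕ), tb (maskOfList l) i = true → i ∈ l := by
  intro l
  induction l with
  | nil =>
    intro i h
    have : tb 0 i = false := by rw [tb_eq]; simp
    simp [maskOfList, this] at h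
  | cons a l ih =>
    intro i h
    simp only [maskOfList, tb_lor, tb_bitm, Bool.or_eq_true, decide_eq_true_eq] at h
    rcases h with h | h
    · rw [h]; exact List.mem_cons_self
    · exact List.mem_cons_of_mem _ (ih i h)

end Vale.Agent.Lib.P062
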